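import Vale.Agent.P032.Words.H378.PalW

/-!
# The word of a centre with one special end

`RawV X V`: the rules of a tie word; the rule `dbl` is only assumed off the times of the special end `V`
(letters `0`, `2` only), where two weaker rules are used (`endp`, `endm`).  `RawV.rawW`: such a word
satisfies the weak local rules at every time.
-/

namespace Vale.Agent.P032.Words

open Set Filter Topology Scc

/-- a proper selection from tie palettes -/
theorem PalT.exists_sel {P : Fin 6 → Fin 4 → Prop} (hP : PalT P) (cover : ∀ k, ∃ l, P k l) :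
    ∃ h : Hx, (∀ k, P k (h k)) ∧ ∀ k, h k ≠ h (k + 1) := by
  classical
  -- no good letter: `0` and `1`
  have key : ∀ k, (¬ ∃ l, P k l ∧ ¬ P (k + 1) l ∧ ¬ P (k - 1) l) → P k 0 ∧ P k 1 := by
    intro k h
    have e : k - 1 + 1 = k := Fin.add_one_sub k
    have hs : ∀ l, P k l → P (k - 1) l ∨ P (k + 1) l := by
      intro l hl
      by_contra hc
      push Not at hc
      exact h ⟨l, hl, hc.2, hc.1⟩
    obtain ⟨l, hl⟩ := cover k
    obtain ⟨m, hm, hmu⟩ : ∃ m, m ≠ l ∧ P k m := by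
      rcases hs l hl with h1 | h1
      · have := hP.own' (k - 1) l h1 (by rw [e]; exact hl)
        rw [e] at this; exact this
      · exact hP.own k l hl h1
    have main : ∀ l m : Fin 4, l ≠ m → P k l → P k m → P (k - 1) l → P (k + 1) m →
        P k 0 ∧ P k 1 := by
      intro l m hlm h1 h2 h3 h4
      have d := hP.dbl (k - 1) l m hlm h3 (by rw [e]; exact h1) (by rw [e]; exact h2)
        (by rw [e]; exact h4)
      rcases val_lt_two d.1 d.2 hlm with ⟨rfl, rfl⟩ | ⟨rfl, rfl⟩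
      · exact ⟨h1, h2⟩
      · exact ⟨h2, h1⟩
    rcases hs l hl with h1 | h1 <;> rcases hs m hmu with h2 | h2
    · exact absurd (hP.swap (k - 1) m l h2 (by rw [e]; exact hmu) h1 (by rw [e]; exact hl)) hm
    · exact main l m hm.symm hl hmu h1 h2
    · exact main m l hm hmu hl h2 h1
    · exact absurd (hP.swap k m l hmu h2 hl h1) hm
  let h : Hx := fun k => if hk : ∃ l, P k l ∧ ¬ P (k + 1) l ∧ ¬ P (k - 1) l then hk.choose else 0
  have hg : ∀ k, (hk : ∃ l, P k l ∧ ¬ P (k + 1) l ∧ ¬ P (k - 1) l) →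
      P k (h k) ∧ ¬ P (k + 1) (h k) ∧ ¬ P (k - 1) (h k) := by
    intro k hk
    have : h k = hk.choose := dif_pos hk
    rw [this]
    exact hk.choose_spec
  have hm : ∀ k, P k (h k) := by
    intro k
    by_cases hk : ∃ l, P k l ∧ ¬ P (k + 1) l ∧ ¬ P (k - 1) l
    · exact (hg k hk).1
    · have : h k = 0 := dif_neg hk
      rw [this]
      exact (key k hk).1
  refine ⟨h, hm, fun k he => ?_⟩
  by_cases hk : ∃ l, P k l ∧ ¬ P (k + 1) l ∧ ¬ P (k - 1) l
  · exact (hg k hk).2.1 (he ▸ hm (k + 1))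
  by_cases hk' : ∃ l, P (k + 1) l ∧ ¬ P (k + 1 + 1) l ∧ ¬ P (k + 1 - 1) l
  · have := (hg (k + 1) hk').2.2
    rw [add_sub_cancel_right] at this
    exact this (he ▸ hm k)
  exact absurd (hP.swap k 0 1 (key k hk).1 (key _ hk').1 (key k hk).2 (key _ hk').2) (by decide)

/-- The word of a centre with one special end `V` of type `0|2`. -/
structure RawV (X : Fin 4 → Set ℝ) (V : ℝ) : Prop where
  closed : ∀ l, IsClosed (X l)
  cover : ∀ u, ∃ l, u ∈ X l
  per : ∀ l u, u + 6 ∈ X l ↔ u ∈ X l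
  anti : ∀ u, u ∈ X 2 → u + 3 ∉ X 3
  ac : ∀ u, u ∈ X 2 → u ∉ X 3
  two : ∀ u l m n, u ∈ X l → u ∈ X m → u ∈ X n → l = m ∨ m = n ∨ n = l
  own : ∀ u l, u ∈ X l → u + 1 ∈ X l → ∃ m, m ≠ l ∧ u ∈ X m
  own' : ∀ u l, u ∈ X l → u + 1 ∈ X l → ∃ m, m ≠ l ∧ u + 1 ∈ X m
  swap : ∀ u l m, u ∈ X l → u + 1 ∈ X l → u ∈ X m → u + 1 ∈ X m → l = m
  dbl : ∀ u l m, (∀ n : ℤ, u ≠ V + n) → l ≠ m → u ∈ X l → u + 1 ∈ X l → u + 1 ∈ X m →
    u + 2 ∈ X m → l.val < 2 ∧ m.val < 2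
  spv : ∀ l, V ∈ X l → l = 0 ∨ l = 2
  endp : ∀ m, m ≠ 2 → V ∈ X 2 → V + 1 ∈ X 2 → V + 1 ∈ X m → V + 2 ∉ X m
  endm : ∀ m, m ≠ 2 → V ∈ X 2 → V - 1 ∈ X 2 → V - 1 ∈ X m → V - 2 ∉ X m

section
variable {X : Fin 4 → Set ℝ}

theorem perZ (per : ∀ l u, u + 6 ∈ X l ↔ u ∈ X l) (n : ℤ) (l : Fin 4) (u : ℝ) :
    u + 6 * (n : ℝ) ∈ X l ↔ u ∈ X l := by
  induction n generalizing u with
  | zero => simp
  | succ i ih =>
    have : u + 6 * (((i : ℤ) + 1 : ℤ) : ℝ) = (u + 6 * ((i : ℤ) : ℝ)) + 6 := by push_cast; ring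
    rw [this, per, ih]
  | pred i ih =>
    have : u + 6 * ((-(i : ℤ) - 1 : ℤ) : ℝ) + 6 = u + 6 * ((-(i : ℤ) : ℤ) : ℝ) := by
      push_cast; ring
    rw [← per, this, ih]

theorem palX_step (per : ∀ l u, u + 6 ∈ X l ↔ u ∈ X l) (u : ℝ) (k : Fin 6) (l : Fin 4) :
    l ∈ palX X u (k + 1) ↔ u + (k.val : ℝ) + 1 ∈ X l := by
  rw [← palX_add_one per]
  show u + 1 + (k.val : ℝ) ∈ X l ↔ _
  have : u + 1 + (k.val : ℝ) = u + (k.val : ℝ) + 1 := by ring
  rw [this]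

theorem palX_step2 (per : ∀ l u, u + 6 ∈ X l ↔ u ∈ X l) (u : ℝ) (k : Fin 6) (l : Fin 4) :
    l ∈ palX X u (k + 1 + 1) ↔ u + (k.val : ℝ) + 2 ∈ X l := by
  rw [← palX_add_one per, palX_step per]
  have : u + 1 + (k.val : ℝ) + 1 = u + (k.val : ℝ) + 2 := by ring
  rw [this]

theorem palX_step3 (per : ∀ l u, u + 6 ∈ X l ↔ u ∈ X l) (u : ℝ) (k : Fin 6) (l : Fin 4) :
    l ∈ palX X u (k + 3) ↔ u + (k.val : ℝ) + 3 ∈ X l := by
  have e : k + 3 = k + 1 + 1 + 1 := by revert k; decide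
  rw [e, ← palX_add_one per, palX_step2 per]
  have : u + 1 + (k.val : ℝ) + 2 = u + (k.val : ℝ) + 3 := by ring
  rw [this]

namespace RawV

variable {V : ℝ}

/-- off the times of the special end all rules hold -/
theorem palT (w : RawV X V) {u : ℝ} (hu : ∀ n : ℤ, u ≠ V + n) : PalT (fun k l => l ∈ palX X u k) := by
  have hu' : ∀ k : Fin 6, ∀ n : ℤ, u + (k.val : ℝ) ≠ V + n := by
    intro k n h
    exact hu (n - (k.val : ℤ)) (by push_cast; linarith)
  refine ⟨?_, ?_, ?_, ?_⟩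
  · intro k l h1 h2
    exact w.own _ l h1 ((palX_step w.per u k l).1 h2)
  · intro k l h1 h2
    obtain ⟨m, hm, h⟩ := w.own' _ l h1 ((palX_step w.per u k l).1 h2)
    exact ⟨m, hm, (palX_step w.per u k m).2 h⟩
  · intro k l m h1 h2 h3 h4
    exact w.swap _ l m h1 ((palX_step w.per u k l).1 h2) h3 ((palX_step w.per u k m).1 h4)
  · intro k l m hlm h1 h2 h3 h4
    exact w.dbl _ l m (hu' k) hlm h1 ((palX_step w.per u k l).1 h2)
      ((palX_step w.per u k m).1 h3) ((palX_step2 w.per u k m).1 h4)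

theorem swapW (w : RawV X V) (u : ℝ) (k : Fin 6) (l m : Fin 4) (h1 : l ∈ palX X u k)
    (h2 : l ∈ palX X u (k + 1)) (h3 : m ∈ palX X u k) (h4 : m ∈ palX X u (k + 1)) : l = m :=
  w.swap _ l m h1 ((palX_step w.per u k l).1 h2) h3 ((palX_step w.per u k m).1 h4)

/-- the weak rules at every time -/
theorem palW (w : RawV X V) (u : ℝ) : PalW (fun k l => l ∈ palX X u k) := by
  by_cases hu : ∀ n : ℤ, u ≠ V + n
  · exact (w.palT hu).palW
  push Not at hu
  obtain ⟨n, hn⟩ := hu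
  refine ⟨fun k l m => w.swapW u k l m, ?_⟩
  intro h hp hr
  -- the position of the special end
  obtain ⟨k, m, hk⟩ : ∃ (k : Fin 6) (m : ℤ), u + (k.val : ℝ) = V + 6 * m := by
    have h1 : 0 ≤ (-n) % 6 := Int.emod_nonneg _ (by norm_num)
    have h2 : (-n) % 6 < 6 := Int.emod_lt_of_pos _ (by norm_num)
    refine ⟨⟨((-n) % 6).toNat, by omega⟩, -((-n) / 6), ?_⟩
    have h3 : ((((-n) % 6).toNat : ℕ) : ℝ) = (((-n) % 6 : ℤ) : ℝ) := by
      have : ((((-n) % 6).toNat : ℕ) : ℤ) = (-n) % 6 := Int.toNat_of_nonneg h1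
      exact_mod_cast congrArg (Int.cast : ℤ → ℝ) this
    have h4 : (((-n) % 6 : ℤ) : ℝ) = -(n : ℝ) - 6 * (((-n) / 6 : ℤ) : ℝ) := by
      have := Int.emod_add_mul_ediv (-n) 6
      have h5 : (-n) % 6 = -n - 6 * ((-n) / 6) := by omega
      rw [h5]; push_cast; ring
    show u + ((((-n) % 6).toNat : ℕ) : ℝ) = _
    rw [h3, h4, hn]
    push_cast
    ring
  have p0 : ∀ l, l ∈ palX X u k ↔ V ∈ X l := by
    intro l
    show u + (k.val : ℝ) ∈ X l ↔ _
    rw [hk, perZ w.per]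
  have p1 : ∀ l, l ∈ palX X u (k + 1) ↔ V + 1 ∈ X l := by
    intro l
    rw [palX_step w.per, hk]
    have : V + 6 * (m : ℝ) + 1 = V + 1 + 6 * (m : ℝ) := by ring
    rw [this, perZ w.per]
  have p2 : ∀ l, l ∈ palX X u (k + 1 + 1) ↔ V + 2 ∈ X l := by
    intro l
    rw [palX_step2 w.per, hk]
    have : V + 6 * (m : ℝ) + 2 = V + 2 + 6 * (m : ℝ) := by ring
    rw [this, perZ w.per]
  have e1 : k - 1 + 1 = k := Fin.add_one_sub k
  have e2 : k - 1 - 1 + 1 = k - 1 := Fin.add_one_sub (k - 1)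
  have q1 : ∀ l, l ∈ palX X u (k - 1) ↔ V - 1 ∈ X l := by
    intro l
    have h1 := palX_step w.per (u - 1) (k - 1) l
    rw [e1] at h1
    -- `palX X (u - 1) k`
    have h2 : palX X (u - 1 + 1) (k - 1) = palX X (u - 1) k := by
      rw [palX_add_one w.per, e1]
    have h3 : u - 1 + 1 = u := by ring
    rw [h3] at h2
    rw [h2]
    show u - 1 + (k.val : ℝ) ∈ X l ↔ _
    have : u - 1 + (k.val : ℝ) = V - 1 + 6 * (m : ℝ) := by linarith
    rw [this, perZ w.per]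
  have q2 : ∀ l, l ∈ palX X u (k - 1 - 1) ↔ V - 2 ∈ X l := by
    intro l
    have h2 : palX X (u - 2 + 1 + 1) (k - 1 - 1) = palX X (u - 2) k := by
      rw [palX_add_one w.per, palX_add_one w.per, e2, e1]
    have h3 : u - 2 + 1 + 1 = u := by ring
    rw [h3] at h2
    rw [h2]
    show u - 2 + (k.val : ℝ) ∈ X l ↔ _
    have : u - 2 + (k.val : ℝ) = V - 2 + 6 * (m : ℝ) := by linarith
    rw [this, perZ w.per]
  have a0 := (p0 _).1 (hr k).1
  have a1 := (p0 _).1 (hr k).2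
  rcases w.spv _ a0 with b0 | b0
  · have b1 : h (k + 1) = 2 := by
      rcases w.spv _ a1 with b1 | b1
      · exact absurd (b0.trans b1.symm) (hp k)
      · exact b1
    have c1 := (p1 _).1 (hr (k + 1)).1
    have c2 := (p1 _).1 (hr (k + 1)).2
    have c3 := (p2 _).1 (hr (k + 1 + 1)).1
    rw [b1] at a1 c1
    refine w.endp (h (k + 1 + 1)) (fun h5 => hp (k + 1) ?_) a1 c1 c2 c3
    rw [b1, h5]
  · have c1 := (q1 _).1 (hr (k - 1)).1
    have c2 := (q1 _).1 (hr (k - 1)).2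
    have c3 := (q2 _).1 (hr (k - 1 - 1)).2
    rw [e1, b0] at c2
    rw [e2] at c3
    rw [b0] at a0
    refine w.endm (h (k - 1)) (fun h5 => hp (k - 1) ?_) a0 c2 c1 c3
    rw [e1, b0, h5]

theorem g4 (w : RawV X V) (u : ℝ) : palX X u ∈ G4w :=
  ⟨w.palW u, fun k h2 h3 => w.anti _ h2 ((palX_step3 w.per u k 3).1 h3)⟩

theorem ex (w : RawV X V) (u : ℝ) : ∃ h, Sel R4 (palX X u) h := by
  -- off the times of the special end
  have key : ∀ v : ℝ, (∀ n : ℤ, v ≠ V + n) → ∃ h, Sel R4 (palX X v) h := by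
    intro v hv
    obtain ⟨h, h1, h2⟩ := (w.palT hv).exists_sel fun k => w.cover _
    refine ⟨h, h1, legR_iff.mpr ⟨h2, ?_⟩⟩
    rintro k ⟨a, b⟩
    have h3 := h1 k
    have h4 := h1 (k + 3)
    rw [a] at h3
    rw [b] at h4
    exact w.anti _ h3 ((palX_step3 w.per v k 3).1 h4)
  by_cases hu : ∀ n : ℤ, u ≠ V + n
  · exact key u hu
  push Not at hu
  obtain ⟨n, hn⟩ := hu
  have h1 := (palX_near w.closed u).filter_mono (nhdsWithin_le_nhds (s := Ioi u))
  have h2 : ∀ᶠ v in 𝓝[>] u, v ∈ Ioo u (u + 1) := Ioo_mem_nhdsGT (by linarith)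
  obtain ⟨v, hv1, hv2⟩ := (h1.and h2).exists
  obtain ⟨h, hh⟩ := key v (by
    intro m hm
    rw [hm, hn] at hv2
    have h3 : (n : ℝ) < m := by linarith [hv2.1]
    have h4 : (m : ℝ) < n + 1 := by linarith [hv2.2]
    have h5 : n < m := by exact_mod_cast h3
    have h6 : m < n + 1 := by exact_mod_cast h4
    omega)
  exact ⟨h, fun k => hv1 k (hh.1 k), hh.2⟩

/-- **the weak local rules** -/
theorem rawW (w : RawV X V) : RawW X where
  closed := w.closed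
  cover := w.cover
  per := w.per
  anti := w.anti
  ac := w.ac
  two := w.two
  ex := w.ex
  g4 := w.g4

end RawV

end

end Vale.Agent.P032.Words
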