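import Vale.Agent.P032.Words.H984.One
import Vale.Agent.P032.Words.H349.TieL

/-!
# One circle under weaker local rules

`PalW`: neighbouring palettes share at most one letter, and the circle cannot be rotated.  This is all
that is used for: a strongly connected change is a single change.
-/

namespace Vale.Agent.P032.Words

open Set Filter Topology Scc

/-- Six palettes around the circle: two neighbours share at most one letter; no rotation. -/
structure PalW (P : Fin 6 → Fin 4 → Prop) : Prop where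
  swap : ∀ k l m, P k l → P (k + 1) l → P k m → P (k + 1) m → l = m
  norot : ∀ h : Hx, (∀ k, h k ≠ h (k + 1)) → ¬ ∀ k, P k (h k) ∧ P k (h (k + 1))

theorem PalT.palW {P : Fin 6 → Fin 4 → Prop} (hP : PalT P) : PalW P where
  swap := hP.swap
  norot h hh hr := by
    refine hP.no_all fun k => ?_
    have e : k - 1 + 1 = k := Fin.add_one_sub k
    have := hP.dbl (k - 1) (h k) (h (k + 1)) (hh k) (by have := (hr (k - 1)).2; rwa [e] at this)
      (by rw [e]; exact (hr k).1) (by rw [e]; exact (hr k).2) (by rw [e]; exact (hr (k + 1)).1)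
    exact ⟨h k, h (k + 1), hh k, this.1, this.2, (hr k).1, (hr k).2⟩

/-- Some position can be changed. -/
theorem PalW.exists_step {P : Fin 6 → Fin 4 → Prop} (hP : PalW P) {h h' : Hx}
    (hh : ∀ k, P k (h k)) (hh' : ∀ k, P k (h' k))
    (hp' : ∀ k, h' k ≠ h' (k + 1)) (hne : h ≠ h') :
    ∃ k, h k ≠ h' k ∧ h' k ≠ h (k + 1) ∧ h' k ≠ h (k - 1) := by
  by_contra hcon
  push Not at hcon
  have hcon' : ∀ k, h k ≠ h' k → h' k = h (k + 1) ∨ h' k = h (k - 1) := fun k hk => by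
    by_cases h1 : h' k = h (k + 1)
    · exact Or.inl h1
    · exact Or.inr (hcon k hk h1)
  obtain ⟨k0, hk0⟩ : ∃ k, h k ≠ h' k := by
    by_contra hc; push Not at hc; exact hne (funext hc)
  rcases hcon' k0 hk0 with h0 | h0
  · -- rotation to the right
    have all : ∀ k, h k ≠ h' k ∧ h' k = h (k + 1) := by
      refine cyc ⟨k0, hk0, h0⟩ ?_
      rintro k ⟨h1, h2⟩
      have h3 : h (k + 1) ≠ h' (k + 1) := fun h' => hp' k (h2.trans h')
      refine ⟨h3, ?_⟩
      rcases hcon' (k + 1) h3 with h4 | h4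
      · exact h4
      · exfalso
        rw [add_sub_cancel_right] at h4
        refine h1 (hP.swap k (h k) (h' k) (hh k) ?_ (hh' k) ?_)
        · rw [← h4]; exact hh' (k + 1)
        · rw [h2]; exact hh (k + 1)
    refine hP.norot h (fun k => (all k).2 ▸ (all k).1) fun k => ⟨hh k, (all k).2 ▸ hh' k⟩
  · have all : ∀ k, h k ≠ h' k ∧ h' k = h (k - 1) := by
      refine cyc' ⟨k0, hk0, h0⟩ ?_
      rintro k ⟨h1, h2⟩
      rw [add_sub_cancel_right] at h2
      have h3 : h k ≠ h' k := fun h'' => hp' k (by rw [h2, h''])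
      refine ⟨h3, ?_⟩
      rcases hcon' k h3 with h4 | h4
      · exfalso
        refine h3 (hP.swap k (h k) (h' k) (hh k) ?_ (hh' k) ?_)
        · rw [← h2]; exact hh' (k + 1)
        · rw [h4]; exact hh (k + 1)
      · exact h4
    refine hP.norot h' hp' fun k => ⟨hh' k, ?_⟩
    have := (all (k + 1)).2
    rw [add_sub_cancel_right] at this
    rw [this]
    exact hh k

/-- palettes of a circle, weak form -/
def G4w : Set (Fin 6 → Set (Fin 4)) := {P | PalW (fun k l => l ∈ P k) ∧ ∀ k, 2 ∈ P k → 3 ∉ P (k + 3)}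

theorem G4_sub : G4 ⊆ G4w := fun _ hP => ⟨hP.1.palW, hP.2⟩

/-- **One circle**: a strongly connected change is a single change. -/
theorem single_of_SCw {P : Fin 6 → Set (Fin 4)} (hP : P ∈ G4w) {h h' : Hx} (hh : Sel R4 P h)
    (hh' : Sel R4 P h') (hne : h ≠ h') (hsc : SC R4 h h') :
    ∃ k, h k ≠ h' k ∧ h' = Function.update h k (h' k) := by
  obtain ⟨hT, hanti⟩ := hP
  obtain ⟨k, h1, h2, h3⟩ := hT.exists_step (h := h) (h' := h') hh.1 hh'.1
    (legR_iff.mp hh'.2).1 hne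
  refine ⟨k, h1, ?_⟩
  funext j
  by_cases hj : j = k
  · subst hj; rw [Function.update_self]
  rw [Function.update_of_ne hj]
  by_contra hd
  obtain ⟨q, hq, p, hp, hpd, hreq⟩ := hsc {k} ⟨k, rfl⟩ (by rintro q rfl; exact h1)
    ⟨j, hj, fun e => hd e.symm⟩
  rw [mem_singleton_iff] at hq
  subst hq
  apply hreq
  have e3 : ∀ a b : Fin 6, a = b + 3 → b = a + 3 := by decide
  refine ⟨⟨?_, ?_⟩, ⟨?_, ?_⟩⟩
  · intro e
    have : p = q - 1 := by rw [e, add_sub_cancel_right]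
    rw [this]
    exact h3.symm
  · rintro e ⟨e1, e2⟩
    have a1 := hh.1 p
    have a2 := hh'.1 q
    rw [e1] at a1
    rw [e2, e] at a2
    exact hanti p a1 a2
  · intro e
    rw [e]
    exact h2
  · rintro e ⟨e1, e2⟩
    have a1 := hh'.1 q
    have a2 := hh.1 p
    rw [e1] at a1
    rw [e2, e] at a2
    exact hanti q a1 a2

variable {c : Fin 4 → Fin 4 → Prop}

theorem ep_of_reach_w {G : Set (Fin 6 → Set (Fin 4))} (hG : G ⊆ G4w) {x y : Hx × Multiset Ev}
    (hr : Scc.Reach R4 (tauE c) G x y) :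
    ∃ L : List Ev, EP c x.1 L y.1 ∧ y.2 = x.2 + (L : Multiset Ev) := by
  unfold Scc.Reach at hr
  induction hr with
  | refl => exact ⟨[], EP.refl _, by simp⟩
  | @tail y z _ hs ih =>
    obtain ⟨L, hL, hL2⟩ := ih
    obtain ⟨P, hP, a1, a2, a3, a4, a5⟩ := hs
    obtain ⟨k, hk, he⟩ := single_of_SCw (hG hP) a1 a2 a3 a4
    have hsum : ∑ p, tauE c p (y.1 p) (z.1 p) = tauE c k (y.1 k) (z.1 k) := by
      refine Finset.sum_eq_single k (fun j _ hj => ?_) (fun h => absurd (Finset.mem_univ k) h)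
      have : z.1 j = y.1 j := by rw [he, Function.update_of_ne hj]
      rw [this, tauE_self]
    rw [hsum] at a5
    have l1 : Leg4 y.1 := legR_iff.mp a1.2
    have l2 : Leg4 (Function.update y.1 k (z.1 k)) := he ▸ legR_iff.mp a2.2
    by_cases hc : c (y.1 k) (z.1 k)
    · refine ⟨L ++ [(k, y.1 k, z.1 k)], ?_, ?_⟩
      · have := EP.mark k (z.1 k) hL l1 l2 hk hc
        rwa [← he] at this
      · rw [a5, hL2, tauE, if_pos ⟨hk, hc⟩, add_assoc]
        rfl
    · refine ⟨L, ?_, ?_⟩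
      · have := EP.free k (z.1 k) hL l1 l2 hk hc
        rwa [← he] at this
      · rw [a5, hL2, tauE, if_neg (fun h => hc h.2), add_zero]

theorem ep_of_walk_w {G : Set (Fin 6 → Set (Fin 4))} (hG : G ⊆ G4w) {h g : Hx}
    {M : List (Multiset Ev)} (hw : Walk R4 (tauE c) G h M g) :
    ∃ Ls : List (List Ev), List.Forall₂ (fun (L : List Ev) (m : Multiset Ev) => (L : Multiset Ev) = m)
      Ls M ∧ EP c h Ls.flatten g := by
  induction hw with
  | @nil h g h1 =>
    obtain ⟨L, h2, h3⟩ := ep_of_reach_w (x := (h, 0)) (y := (g, 0)) hG h1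
    have h3' : (0 : Multiset Ev) = 0 + (L : Multiset Ev) := h3
    rw [zero_add] at h3'
    have : L = [] := Multiset.coe_eq_zero L |>.mp h3'.symm
    subst this
    exact ⟨[], List.Forall₂.nil, h2⟩
  | @cons h h' g m M h1 _ ih =>
    obtain ⟨L, h2, h3⟩ := ep_of_reach_w (x := (h, 0)) (y := (h', m)) hG h1
    obtain ⟨Ls, h4, h5⟩ := ih
    have h3' : m = 0 + (L : Multiset Ev) := h3
    rw [zero_add] at h3'
    refine ⟨L :: Ls, List.Forall₂.cons h3'.symm h4, ?_⟩
    rw [List.flatten_cons]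
    exact EP.trans h2 h5

/-- **One circle with any number of marks**, weak local rules. -/
theorem one_circle_w {X : Fin 4 → Set ℝ} (hcl : ∀ l, IsClosed (X l))
    (per : ∀ l u, u + 6 ∈ X l ↔ u ∈ X l) (ex : ∀ u, ∃ h, Sel R4 (palX X u) h) (a : ℝ)
    (hG : ∀ u ∈ Ioo a (a + 1), palX X u ∈ G4w) (F : Set ℝ) (lf rt : ℝ → Fin 4)
    (hF : ∀ t ∈ Ioo a (a + 1), ∀ k : Fin 6, t + (k.val : ℝ) ∈ F →
      Mark X (lf (t + (k.val : ℝ))) (rt (t + (k.val : ℝ))) (t + (k.val : ℝ)) ∧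
      lf (t + (k.val : ℝ)) ≠ rt (t + (k.val : ℝ)) ∧ c (lf (t + (k.val : ℝ))) (rt (t + (k.val : ℝ))))
    (hN : ∀ t ∈ Ioo a (a + 1), ∀ k : Fin 6, t + (k.val : ℝ) ∉ F → ∀ x ∈ palX X t k,
      ∀ y ∈ palX X t k, x ≠ y → ¬ c x y)
    (L : List ℝ) (hL : L.Pairwise (· < ·)) (hLa : ∀ t ∈ L, a < t ∧ t < a + 1)
    (hLF : ∀ t ∈ Ioo a (a + 1), ∀ k : Fin 6, t + (k.val : ℝ) ∈ F → t ∈ L)
    {Bp Bm : Hx → Prop} (hBp : ∀ᶠ v in 𝓝[>] a, ∀ h, Sel R4 (palX X v) h → Bp h)
    (hBm : ∀ᶠ v in 𝓝[<] a, ∀ h, Sel R4 (palX X v) h → Bm h) :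
    ∃ h g : Hx, Bp h ∧ Bm g ∧ Sel R4 (palX X a) h ∧ Sel R4 (palX X a) g ∧
      ∃ Ls : List (List Ev), List.Forall₂ (fun (E : List Ev) (t : ℝ) =>
        (E : Multiset Ev) = evT F lf rt t) Ls L ∧ EP c h Ls.flatten (rot g) := by
  have w : Wd R4 (palX X) := ⟨palX_near hcl, ex⟩
  have hq : ∀ u ∈ Ioo a (a + 1), u ∉ L → Quiet (tauE c) (palX X u) := by
    intro u hu huL p x hx y hy
    unfold tauE
    rw [if_neg]
    rintro ⟨hne, hc⟩
    exact hN u hu p (fun hF' => huL (hLF u hu p hF')) x hx y hy hne hc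
  have hx : ∀ u ∈ L, Cross R4 (tauE c) (palX X) u (evT F lf rt u) := fun t ht =>
    cross_marks hcl (hF t (hLa t ht)) (hN t (hLa t ht))
  obtain ⟨h, g, h1, h2, h3, h4, h5⟩ := w.cycle_walk (τ := tauE c) (G := G4w) tauE_self
    (Equiv.addRight (1 : Fin 6)) (fun u p => palX_add_one per u p) (fun p q a b => R4_rot p q a b)
    L hL (evT F lf rt) a hLa hG hq hx hBp hBm
  obtain ⟨Ls, h6, h7⟩ := ep_of_walk_w (le_refl _) h5
  refine ⟨h, g, h1, h2, h3, h4, Ls, ?_, h7⟩
  rw [List.forall₂_map_right_iff] at h6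
  exact h6

/-- The word of a four coloured centre, weak local rules. -/
structure RawW (X : Fin 4 → Set ℝ) : Prop where
  closed : ∀ l, IsClosed (X l)
  cover : ∀ u, ∃ l, u ∈ X l
  per : ∀ l u, u + 6 ∈ X l ↔ u ∈ X l
  anti : ∀ u, u ∈ X 2 → u + 3 ∉ X 3
  ac : ∀ u, u ∈ X 2 → u ∉ X 3
  two : ∀ u l m n, u ∈ X l → u ∈ X m → u ∈ X n → l = m ∨ m = n ∨ n = l
  ex : ∀ u, ∃ h, Sel R4 (palX X u) h
  g4 : ∀ u, palX X u ∈ G4w

theorem RawT.rawW {X : Fin 4 → Set ℝ} (w : RawT X) : RawW X where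
  closed := w.closed
  cover := w.cover
  per := w.per
  anti := w.anti
  ac := w.ac
  two := w.two
  ex := w.exSel
  g4 u := G4_sub (w.g4 u)

end Vale.Agent.P032.Words
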